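import Vale.Agent.P228M.BaireAL

namespace Vale.Agent.P228M

open Set Filter Topology Metric Vale.Agent.Lib.Degree Vale.Agent.P228D
open scoped Manifold

theorem baireBL_avg {E : Type*} [NormedAddCommGroup E] [NormedSpace ℝ E] (u : ℕ → E) (v : E)
    (c K : ℝ) (hK : ∀ i, ‖u i‖ ≤ K) (hu : ∀ i, ‖u (i + 1) - u i - v‖ ≤ c) : ‖v‖ ≤ c := by
  have h1 : ∀ N : ℕ, ‖u N - u 0 - (N : ℝ) • v‖ ≤ N * c := by
    intro N
    induction N with
    | zero => simp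
    | succ N ih =>
      have he : u (N + 1) - u 0 - ((N + 1 : ℕ) : ℝ) • v =
          (u (N + 1) - u N - v) + (u N - u 0 - (N : ℝ) • v) := by
        push_cast
        rw [add_smul, one_smul]
        abel
      rw [he]
      refine (norm_add_le _ _).trans ?_
      push_cast
      linarith [hu N]
  have h2 : ∀ N : ℕ, (N : ℝ) * (‖v‖ - c) ≤ 2 * K := by
    intro N
    have h3 : ‖(N : ℝ) • v‖ ≤ ‖u N - u 0‖ + ‖u N - u 0 - (N : ℝ) • v‖ := by
      have he : (N : ℝ) • v = (u N - u 0) - (u N - u 0 - (N : ℝ) • v) := by abel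
      calc ‖(N : ℝ) • v‖ = ‖(u N - u 0) - (u N - u 0 - (N : ℝ) • v)‖ := by rw [← he]
        _ ≤ _ := norm_sub_le _ _
    rw [norm_smul, Real.norm_natCast] at h3
    have h4 := norm_sub_le (u N) (u 0)
    linarith [h1 N, hK N, hK 0]
  by_contra hc
  push Not at hc
  have hpos : 0 < ‖v‖ - c := sub_pos.2 hc
  obtain ⟨N, hN⟩ := exists_nat_gt (2 * K / (‖v‖ - c))
  rw [div_lt_iff₀ hpos] at hN
  linarith [h2 N]

theorem baireBL {p : ℕ} [Fact p.Prime] {n : ℕ} {a : ℤ_[p] → (Fin n → ℝ) → (Fin n → ℝ)}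
    {η₀ : ℝ} {W : Set (Fin n → ℝ)} (ha : LocAct p a η₀ W) (F G : Set (Fin n → ℝ))
    (hF : IsCompact F) (hFW : F ⊆ W) (hG : IsOpen G) (hne : (F ∩ G).Nonempty) :
    ∃ (z : Fin n → ℝ) (ρ η : ℝ), z ∈ F ∩ G ∧ 0 < ρ ∧ 0 < η ∧ η ≤ η₀ ∧ ∀ h : ℤ_[p], ‖h‖ < η →
      ∀ x ∈ F, ‖x - z‖ < ρ → ∀ y, ‖y - z‖ < ρ → ‖a h y - y‖ ≤ 1 / 50 * ‖y - x‖ := by
  obtain ⟨g₀, η, ρ, δ, z, B, hη, hρ, hδ, hg₀, hz, hB⟩ :=
    baireAL ha F G hF hFW hG hne (1 / 101) (by norm_num)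
  obtain ⟨hη₀, hW, hzero, hadd, hcon, -, -⟩ := ha
  have hzW : z ∈ W := hFW hz.1
  have hca : ContinuousAt (fun q : ℤ_[p] × (Fin n → ℝ) => a q.1 q.2) (0, z) :=
    hcon.continuousAt (prod_mem_nhds (closedBall_mem_nhds _ hη₀) (hW.mem_nhds hzW))
  obtain ⟨τ, hτ, hcont⟩ := Metric.continuousAt_iff.1 hca (δ / 2) (by positivity)
  obtain ⟨σ, hσ, hσW⟩ := Metric.isOpen_iff.1 hW z hzW
  refine ⟨z, min ρ (min τ (min (δ / 2) σ)), min η (min τ η₀), hz, by positivity, by positivity,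
    (min_le_right _ _).trans (min_le_right _ _), ?_⟩
  intro h hh x hx hxz y hyz
  simp only [lt_min_iff] at hh hxz hyz
  have hyW : y ∈ W := hσW (mem_ball_iff_norm.2 hyz.2.2.2)
  have hyx : ‖y - x‖ ≤ δ := by
    have := norm_sub_le_norm_sub_add_norm_sub y z x
    rw [norm_sub_rev z x] at this
    linarith [hxz.2.2.1, hyz.2.2.1]
  have hy'z : ‖a h y - z‖ < δ / 2 := by
    have h1 : dist ((h, y) : ℤ_[p] × (Fin n → ℝ)) (0, z) < τ := by
      rw [Prod.dist_eq, max_lt_iff, dist_eq_norm, dist_eq_norm]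
      exact ⟨by simpa using hh.2.1, hyz.2.1⟩
    have h2 := hcont h1
    simp only [hzero z hzW] at h2
    rwa [dist_eq_norm] at h2
  have hy'x : ‖a h y - x‖ ≤ δ := by
    have := norm_sub_le_norm_sub_add_norm_sub (a h y) z x
    rw [norm_sub_rev z x] at this
    linarith [hxz.2.2.1]
  have hih : ∀ i : ℕ, ‖(i : ℤ_[p]) * h‖ ≤ ‖h‖ := by
    intro i
    rw [norm_mul]
    exact mul_le_of_le_one_left (norm_nonneg _) (PadicInt.norm_le_one _)
  have hgi : ∀ i : ℕ, ‖g₀ + (i : ℤ_[p]) * h‖ ≤ η₀ := fun i =>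
    (PadicInt.nonarchimedean _ _).trans (max_le hg₀ ((hih i).trans hh.2.2.le))
  have hc : ContinuousOn (fun g : ℤ_[p] => B (a g y)) (closedBall 0 η₀) :=
    B.continuous.comp_continuousOn (hcon.comp (continuous_id.prodMk continuous_const).continuousOn
      (fun g hg => ⟨hg, hyW⟩))
  obtain ⟨K, hK⟩ := (isClosed_closedBall (x := (0 : ℤ_[p])) (ε := η₀)).isCompact
    |>.exists_bound_of_continuousOn hc
  have hmain := baireBL_avg (fun i : ℕ => B (a (g₀ + (i : ℤ_[p]) * h) y)) (a h y - y)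
    (1 / 101 * ‖a h y - x‖ + 1 / 101 * ‖y - x‖) K
    (fun i => hK _ (mem_closedBall_zero_iff.2 (hgi i))) (by
      intro i
      have hg : ‖g₀ + (i : ℤ_[p]) * h - g₀‖ < η := by
        rw [add_sub_cancel_left]
        exact (hih i).trans_lt hh.1
      have h1 := hB _ (hgi i) hg x hx hxz.1 (a h y) hy'x
      have h2 := hB _ (hgi i) hg x hx hxz.1 y hyx
      have h3 : a (g₀ + ((i + 1 : ℕ) : ℤ_[p]) * h) y = a (g₀ + (i : ℤ_[p]) * h) (a h y) := by
        rw [← hadd _ _ (hgi i) hh.2.2.le y hyW]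
        congr 1
        push_cast
        ring
      have he : B (a (g₀ + ((i + 1 : ℕ) : ℤ_[p]) * h) y) - B (a (g₀ + (i : ℤ_[p]) * h) y) -
          (a h y - y) =
          (B (a (g₀ + (i : ℤ_[p]) * h) (a h y) - a (g₀ + (i : ℤ_[p]) * h) x) - (a h y - x)) -
          (B (a (g₀ + (i : ℤ_[p]) * h) y - a (g₀ + (i : ℤ_[p]) * h) x) - (y - x)) := by
        rw [h3, map_sub, map_sub]
        abel
      show ‖B (a (g₀ + ((i + 1 : ℕ) : ℤ_[p]) * h) y) - B (a (g₀ + (i : ℤ_[p]) * h) y) -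
          (a h y - y)‖ ≤ _
      rw [he]
      exact (norm_sub_le _ _).trans (add_le_add h1 h2))
  have h5 := norm_sub_le_norm_sub_add_norm_sub (a h y) y x
  linarith

end Vale.Agent.P228M
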