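import Vale.Agent.P228M.Defs

namespace Vale.Agent.P228M

open Set Filter Topology Metric Vale.Agent.Lib.Degree Vale.Agent.P228D
open scoped Manifold

theorem chart_diff {n : ℕ} {M : Type} [TopologicalSpace M] [ChartedSpace (Fin n → ℝ) M]
    [IsManifold 𝓘(ℝ, Fin n → ℝ) 1 M] {f : M → M}
    (hf : MDifferentiable 𝓘(ℝ, Fin n → ℝ) 𝓘(ℝ, Fin n → ℝ) f) (x₀ : M) (y : Fin n → ℝ)
    (hy : y ∈ (chartAt (Fin n → ℝ) x₀).target)
    (hfy : f ((chartAt (Fin n → ℝ) x₀).symm y) ∈ (chartAt (Fin n → ℝ) x₀).source) :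
    DifferentiableAt ℝ
      (fun u => chartAt (Fin n → ℝ) x₀ (f ((chartAt (Fin n → ℝ) x₀).symm u))) y := by
  have h1 : MDifferentiableAt 𝓘(ℝ, Fin n → ℝ) 𝓘(ℝ, Fin n → ℝ) (chartAt (Fin n → ℝ) x₀).symm y :=
    mdifferentiableAt_atlas_symm (chart_mem_atlas _ x₀) hy
  have h3 : MDifferentiableAt 𝓘(ℝ, Fin n → ℝ) 𝓘(ℝ, Fin n → ℝ) (chartAt (Fin n → ℝ) x₀)
      (f ((chartAt (Fin n → ℝ) x₀).symm y)) :=
    mdifferentiableAt_atlas (chart_mem_atlas _ x₀) hfy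
  exact (h3.comp y ((hf _).comp y h1)).differentiableAt

theorem chart_loc {p : ℕ} [Fact p.Prime] {n : ℕ} {M : Type} [TopologicalSpace M]
    [ChartedSpace (Fin n → ℝ) M] [IsManifold 𝓘(ℝ, Fin n → ℝ) 1 M] {A : ℤ_[p] → M → M}
    (ha : MAct p n A) (x₀ : M) :
    ∃ (η₀ : ℝ) (W : Set (Fin n → ℝ)),
      LocAct p (fun g u => chartAt (Fin n → ℝ) x₀ (A g ((chartAt (Fin n → ℝ) x₀).symm u))) η₀ W ∧
      chartAt (Fin n → ℝ) x₀ x₀ ∈ W ∧ W ⊆ (chartAt (Fin n → ℝ) x₀).target ∧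
      ∀ g : ℤ_[p], ‖g‖ ≤ η₀ → ∀ y ∈ W,
        A g ((chartAt (Fin n → ℝ) x₀).symm y) ∈ (chartAt (Fin n → ℝ) x₀).source := by
  have hS : IsOpen {q : ℤ_[p] × M | A q.1 q.2 ∈ (chartAt (Fin n → ℝ) x₀).source} :=
    (chartAt (Fin n → ℝ) x₀).open_source.preimage ha.2.2.1
  have h0 : ((0 : ℤ_[p]), x₀) ∈ {q : ℤ_[p] × M | A q.1 q.2 ∈ (chartAt (Fin n → ℝ) x₀).source} := by
    show A 0 x₀ ∈ (chartAt (Fin n → ℝ) x₀).source
    rw [ha.1]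
    exact mem_chart_source _ x₀
  obtain ⟨u, hu, v, hv, huv⟩ := mem_nhds_prod_iff.1 (hS.mem_nhds h0)
  obtain ⟨η₀, hη₀, hηu⟩ := Metric.nhds_basis_closedBall.mem_iff.1 hu
  obtain ⟨V, hVv, hV, hxV⟩ := _root_.mem_nhds_iff.1 hv
  have hsrc : ∀ g : ℤ_[p], ‖g‖ ≤ η₀ →
      ∀ y ∈ (chartAt (Fin n → ℝ) x₀).target ∩ (chartAt (Fin n → ℝ) x₀).symm ⁻¹' V,
        A g ((chartAt (Fin n → ℝ) x₀).symm y) ∈ (chartAt (Fin n → ℝ) x₀).source := by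
    intro g hg y hy
    exact huv (mk_mem_prod (hηu (mem_closedBall_zero_iff.2 hg)) (hVv hy.2))
  refine ⟨η₀, (chartAt (Fin n → ℝ) x₀).target ∩ (chartAt (Fin n → ℝ) x₀).symm ⁻¹' V,
    ⟨hη₀, (chartAt (Fin n → ℝ) x₀).isOpen_inter_preimage_symm hV, ?_, ?_, ?_, ?_, ?_⟩,
    ⟨mem_chart_target _ x₀, ?_⟩, inter_subset_left, hsrc⟩
  · intro y hy
    show chartAt (Fin n → ℝ) x₀ (A 0 _) = y
    rw [ha.1, (chartAt (Fin n → ℝ) x₀).right_inv hy.1]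
  · intro g h _ hh y hy
    show chartAt (Fin n → ℝ) x₀ (A (g + h) _) = chartAt (Fin n → ℝ) x₀
      (A g ((chartAt (Fin n → ℝ) x₀).symm (chartAt (Fin n → ℝ) x₀ (A h _))))
    rw [(chartAt (Fin n → ℝ) x₀).left_inv (hsrc h hh y hy), ha.2.1]
  · have hF : ContinuousOn (fun q : ℤ_[p] × (Fin n → ℝ) =>
        A q.1 ((chartAt (Fin n → ℝ) x₀).symm q.2))
        (closedBall 0 η₀ ×ˢ
          ((chartAt (Fin n → ℝ) x₀).target ∩ (chartAt (Fin n → ℝ) x₀).symm ⁻¹' V)) :=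
      ha.2.2.1.comp_continuousOn (continuousOn_fst.prodMk
        ((chartAt (Fin n → ℝ) x₀).continuousOn_symm.comp continuousOn_snd fun q hq => hq.2.1))
    exact (chartAt (Fin n → ℝ) x₀).continuousOn.comp hF
      fun q hq => hsrc q.1 (mem_closedBall_zero_iff.1 hq.1) q.2 hq.2
  · intro g hg y hy
    exact chart_diff (ha.2.2.2 g) x₀ y hy.1 (hsrc g hg y hy)
  · intro g hg y hy
    refine chart_diff (ha.2.2.2 (-g)) x₀ _ ((chartAt (Fin n → ℝ) x₀).map_source (hsrc g hg y hy)) ?_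
    rw [(chartAt (Fin n → ℝ) x₀).left_inv (hsrc g hg y hy), ← ha.2.1, neg_add_cancel, ha.1]
    exact (chartAt (Fin n → ℝ) x₀).map_target hy.1
  · show (chartAt (Fin n → ℝ) x₀).symm (chartAt (Fin n → ℝ) x₀ x₀) ∈ V
    rw [(chartAt (Fin n → ℝ) x₀).left_inv (mem_chart_source _ x₀)]
    exact hxV

end Vale.Agent.P228M
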