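import Vale.Agent.P228M.Defs

namespace Vale.Agent.P228M

open Set Filter Topology Metric Vale.Agent.Lib.Degree Vale.Agent.P228D
open scoped Manifold

theorem deg_signsL {n : ℕ} {g : (Fin n → ℝ) → (Fin n → ℝ)} (hg : Continuous g)
    {Ω : Set (Fin n → ℝ)} (ho : IsOpen Ω) (hb : Bornology.IsBounded Ω)
    (H : ∀ x ∈ frontier Ω, g x ≠ 0)
    (hreg : ∀ x ∈ Ω, g x = 0 → DifferentiableAt ℝ g x ∧ (fderiv ℝ g x).det ≠ 0) :
    ∃ Z : Finset (Fin n → ℝ), (∀ x, x ∈ Z ↔ x ∈ Ω ∧ g x = 0) ∧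
      deg g Ω = ∑ z ∈ Z, (if 0 < (fderiv ℝ g z).det then (1 : ℝ) else -1) := by
  set Z := {x | x ∈ Ω ∧ g x = 0} with hZ
  have hcl : ∀ x ∈ closure Ω, g x = 0 → x ∈ Ω := by
    intro x hx h0
    by_contra hn
    exact H x ⟨hx, by rwa [ho.interior_eq]⟩ h0
  have hZc : IsCompact Z := by
    have : Z = closure Ω ∩ g ⁻¹' {0} := by
      ext x
      exact ⟨fun h => ⟨subset_closure h.1, h.2⟩, fun h => ⟨hcl x h.1 h.2, h.2⟩⟩
    rw [this]
    exact hb.isCompact_closure.inter_right (isClosed_singleton.preimage hg)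
  have hloc : ∀ z ∈ Z, ∀ᶠ x in 𝓝 z, x ≠ z →
      ‖g x - fderiv ℝ g z (x - z)‖ < ‖fderiv ℝ g z (x - z)‖ := fun z hz =>
    local_linear (hreg z hz.1 hz.2).1.hasFDerivAt (hreg z hz.1 hz.2).2 hz.2
  have hiso : ∀ z ∈ Z, ∀ᶠ x in 𝓝 z, x ∈ Z → x = z := by
    intro z hz
    filter_upwards [hloc z hz] with x hx hxZ
    by_contra hne
    have := hx hne
    rw [hxZ.2, zero_sub, norm_neg] at this
    exact lt_irrefl _ this
  have hfin : Z.Finite := by
    obtain ⟨t, htZ, ht⟩ := hZc.elim_nhds_subcover (fun z => {x | z ∈ Z → x ∈ Z → x = z})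
      (fun z hz => (hiso z hz).mono fun x hx _ => hx)
    refine t.finite_toSet.subset fun x hx => ?_
    obtain ⟨z, hz, hxz⟩ := mem_iUnion₂.1 (ht hx)
    rw [hxz (htZ z hz) hx]
    exact hz
  have hP : ∀ z ∈ Z, ∀ᶠ r in 𝓝[>] (0 : ℝ), ∀ x, dist x z ≤ 2 * r → (x ∈ Ω ∧ (x ∈ Z → x = z) ∧
      (x ≠ z → ‖g x - fderiv ℝ g z (x - z)‖ < ‖fderiv ℝ g z (x - z)‖)) := by
    intro z hz
    have := ((ho.eventually_mem hz.1).and ((hiso z hz).and (hloc z hz)))
    obtain ⟨ε, hε, h⟩ := Metric.eventually_nhds_iff.1 this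
    have h2 : ∀ᶠ r in 𝓝[>] (0 : ℝ), r < ε / 2 :=
      mem_nhdsWithin_of_mem_nhds (gt_mem_nhds (half_pos hε))
    filter_upwards [h2] with r hr x hx
    exact h (by linarith)
  obtain ⟨r, hr, hr0⟩ := (((eventually_all_finite hfin).2 hP).and self_mem_nhdsWithin).exists
  have hr0 : 0 < r := hr0
  have hsum := deg_sum hg ho hb hfin.toFinset (fun z => Metric.ball z r)
    (fun _ _ => Metric.isOpen_ball)
    (fun z hz x hx => (hr z (hfin.mem_toFinset.1 hz) x
      (by rw [Metric.mem_ball] at hx; linarith)).1)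
    (by
      intro z hz z' hz' hne
      have hz := hfin.mem_toFinset.1 hz
      have hz' := hfin.mem_toFinset.1 hz'
      refine disjoint_left.2 fun x hx hx' => hne ?_
      rw [Metric.mem_ball] at hx hx'
      refine (hr z' hz' z ?_).2.1 hz
      have := dist_triangle_left z z' x
      linarith)
    (fun x hx h0 => ⟨x, hfin.mem_toFinset.2 ⟨hcl x hx h0, h0⟩, Metric.mem_ball_self hr0⟩)
  have hone : ∀ z ∈ hfin.toFinset, deg g (Metric.ball z r) =
      (if 0 < (fderiv ℝ g z).det then (1 : ℝ) else -1) := by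
    intro z hz
    have hz := hfin.mem_toFinset.1 hz
    rw [← deg_rouche (f := fun x => fderiv ℝ g z (x - z)) (by fun_prop) hg
      Metric.isOpen_ball Metric.isBounded_ball, deg_affine (hreg z hz.1 hz.2).2 z hr0]
    · intro x hx
      rw [frontier_ball z hr0.ne', mem_sphere_iff_norm, ← dist_eq_norm] at hx
      refine (hr z hz x (by linarith)).2.2 ?_
      rintro rfl
      simp at hx
      linarith
  exact ⟨hfin.toFinset, fun x => hfin.mem_toFinset, by rw [hsum, Finset.sum_congr rfl hone]⟩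

end Vale.Agent.P228M
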