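import Vale.Agent.P228D.Near
import Vale.Agent.P228D.ModP

namespace Vale.Agent.P228M

open Set Filter Topology Metric Vale.Agent.Lib.Degree Vale.Agent.P228D
open scoped Manifold

def LocAct (p : ℕ) [Fact p.Prime] {n : ℕ} (a : ℤ_[p] → (Fin n → ℝ) → (Fin n → ℝ)) (η₀ : ℝ)
    (W : Set (Fin n → ℝ)) : Prop :=
  0 < η₀ ∧ IsOpen W ∧ (∀ y ∈ W, a 0 y = y) ∧
    (∀ g h, ‖g‖ ≤ η₀ → ‖h‖ ≤ η₀ → ∀ y ∈ W, a (g + h) y = a g (a h y)) ∧
    ContinuousOn (fun q : ℤ_[p] × (Fin n → ℝ) => a q.1 q.2) (closedBall 0 η₀ ×ˢ W) ∧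
    (∀ g, ‖g‖ ≤ η₀ → ∀ y ∈ W, DifferentiableAt ℝ (a g) y) ∧
    ∀ g, ‖g‖ ≤ η₀ → ∀ y ∈ W, DifferentiableAt ℝ (a (-g)) (a g y)

def MAct (p : ℕ) [Fact p.Prime] (n : ℕ) {M : Type} [TopologicalSpace M]
    [ChartedSpace (Fin n → ℝ) M] (A : ℤ_[p] → M → M) : Prop :=
  (∀ x, A 0 x = x) ∧ (∀ g h x, A (g + h) x = A g (A h x)) ∧
    Continuous (fun q : ℤ_[p] × M => A q.1 q.2) ∧
    ∀ g, MDifferentiable 𝓘(ℝ, Fin n → ℝ) 𝓘(ℝ, Fin n → ℝ) (A g)

variable {p : ℕ} [Fact p.Prime] {n : ℕ} {M : Type} [TopologicalSpace M]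
  [ChartedSpace (Fin n → ℝ) M] {A : ℤ_[p] → M → M}

theorem MAct.iter (ha : MAct p n A) (h : ℤ_[p]) (i : ℕ) (y : M) :
    (A h)^[i] y = A ((i : ℤ_[p]) * h) y := by
  induction i with
  | zero => simp [ha.1]
  | succ i ih =>
    rw [Function.iterate_succ_apply', ih, ← ha.2.1]
    congr 1
    push_cast
    ring

theorem MAct.inj (ha : MAct p n A) (g : ℤ_[p]) : Function.Injective (A g) := by
  intro x y h
  have := congrArg (A (-g)) h
  rwa [← ha.2.1, ← ha.2.1, neg_add_cancel, ha.1, ha.1] at this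

theorem MAct.iter_pow (ha : MAct p n A) (m s : ℕ) (y : M) :
    (A ((p : ℤ_[p]) ^ m))^[p ^ s] y = A ((p : ℤ_[p]) ^ (m + s)) y := by
  rw [ha.iter]
  congr 1
  push_cast
  ring

theorem MAct.mono (ha : MAct p n A) {m k : ℕ} (hmk : m ≤ k) {y : M}
    (h : A ((p : ℤ_[p]) ^ m) y = y) : A ((p : ℤ_[p]) ^ k) y = y := by
  obtain ⟨s, rfl⟩ := Nat.exists_eq_add_of_le hmk
  rw [← ha.iter_pow]
  exact Function.iterate_fixed h _

/-- retraction onto a closed sup-norm ball -/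
theorem exists_clamp (y₀ : Fin n → ℝ) (r : ℝ) (hr : 0 ≤ r) :
    ∃ c : (Fin n → ℝ) → (Fin n → ℝ), Continuous c ∧ (∀ y, c y ∈ closedBall y₀ r) ∧
      ∀ y ∈ closedBall y₀ r, c y = y := by
  refine ⟨fun y i => max (y₀ i - r) (min (y₀ i + r) (y i)), by fun_prop, fun y => ?_,
    fun y hy => ?_⟩
  · rw [mem_closedBall, dist_pi_le_iff hr]
    intro i
    rw [Real.dist_eq, abs_le]
    constructor
    · linarith [le_max_left (y₀ i - r) (min (y₀ i + r) (y i))]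
    · have : max (y₀ i - r) (min (y₀ i + r) (y i)) ≤ y₀ i + r :=
        max_le (by linarith) (min_le_left _ _)
      linarith
  · rw [mem_closedBall, dist_pi_le_iff hr] at hy
    funext i
    have := hy i
    rw [Real.dist_eq, abs_le] at this
    show max (y₀ i - r) (min (y₀ i + r) (y i)) = y i
    rw [min_eq_right (by linarith [this.2]), max_eq_right (by linarith [this.1])]

end Vale.Agent.P228M
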