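import Vale.Agent.P228M.Defs

namespace Vale.Agent.P228M

open Set Filter Topology Metric Vale.Agent.Lib.Degree Vale.Agent.P228D
open scoped Manifold

theorem touchL {n : ℕ} (O : Set (Fin n → ℝ)) (ho : IsOpen O) (z₁ : Fin n → ℝ)
    (h₁ : z₁ ∈ closure O) (h₂ : z₁ ∉ O) (ρ : ℝ) (hρ : 0 < ρ) :
    ∃ z, z ∉ O ∧ ‖z - z₁‖ < ρ ∧ ∀ f : (Fin n → ℝ) → (Fin n → ℝ), DifferentiableAt ℝ f z →
      (∀ y ∈ O, f y = y) → ∀ ε : ℝ, 0 < ε → ∀ᶠ y in 𝓝 z, ‖f y - y‖ ≤ ε * ‖y - z‖ := by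
  obtain ⟨u, hu, hu'⟩ := Metric.mem_closure_iff.1 h₁ (ρ / 2) (half_pos hρ)
  have hc : (Oᶜ).Nonempty := ⟨z₁, h₂⟩
  obtain ⟨z, hz, hd⟩ := ho.isClosed_compl.exists_infDist_eq_dist hc u
  have hR : 0 < dist u z := dist_pos.2 fun h => hz (h ▸ hu)
  have hball : ball u (dist u z) ⊆ O := by
    intro y hy
    by_contra h
    have h1 : infDist u Oᶜ ≤ dist u y := infDist_le_dist_of_mem h
    rw [mem_ball'] at hy
    linarith
  have hcl : z ∈ closure (ball u (dist u z)) := by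
    rw [closure_ball u hR.ne', mem_closedBall']
  have hud : UniqueDiffWithinAt ℝ (ball u (dist u z)) z :=
    uniqueDiffWithinAt_convex (convex_ball _ _)
      (by rw [isOpen_ball.interior_eq]; exact nonempty_ball.2 hR) hcl
  have hz1 : ‖z - z₁‖ < ρ := by
    have a1 : infDist u Oᶜ ≤ dist u z₁ := infDist_le_dist_of_mem h₂
    have a2 := dist_triangle_left z z₁ u
    rw [← dist_eq_norm]
    rw [dist_comm] at hu'
    linarith
  refine ⟨z, hz, hz1, fun f hf hfO ε hε => ?_⟩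
  have hfz : f z = z := by
    have h1 : ContinuousWithinAt f (ball u (dist u z)) z := hf.continuousAt.continuousWithinAt
    have h2 : Tendsto f (𝓝[ball u (dist u z)] z) (𝓝 z) := by
      refine (tendsto_id.mono_left nhdsWithin_le_nhds).congr' ?_
      filter_upwards [self_mem_nhdsWithin] with y hy
      exact (hfO y (hball hy)).symm
    haveI := mem_closure_iff_nhdsWithin_neBot.1 hcl
    exact tendsto_nhds_unique h1 h2
  have h1 : HasFDerivWithinAt f (ContinuousLinearMap.id ℝ (Fin n → ℝ)) (ball u (dist u z)) z :=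
    (hasFDerivWithinAt_id z _).congr (fun y hy => hfO y (hball hy)) hfz
  have h2 : fderiv ℝ f z = ContinuousLinearMap.id ℝ (Fin n → ℝ) :=
    hud.eq hf.hasFDerivAt.hasFDerivWithinAt h1
  have h3 := hf.hasFDerivAt.isLittleO
  rw [h2, hfz] at h3
  filter_upwards [h3.def hε] with y hy
  simpa using hy

end Vale.Agent.P228M
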