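import Vale.Agent.P228M.NewmanL
import Vale.Agent.P228M.TouchL

namespace Vale.Agent.P228M

open Set Filter Topology Metric Vale.Agent.Lib.Degree Vale.Agent.P228D
open scoped Manifold

theorem finalL {n : ℕ} (p s : ℕ) [Fact p.Prime] {γ : (Fin n → ℝ) → (Fin n → ℝ)}
    (W : Set (Fin n → ℝ)) (hW : IsOpen W)
    (hd : ∀ i : ℕ, ∀ y ∈ W, DifferentiableAt ℝ (γ^[i]) y) (hinj : InjOn γ W)
    (hper : ∀ y ∈ W, γ^[p ^ s] y = y) (z₁ : Fin n → ℝ) (hz₁ : z₁ ∈ W)
    (hz : z₁ ∈ closure (W ∩ interior {y | γ y = y})) : z₁ ∈ interior {y | γ y = y} := by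
  by_contra hne
  obtain ⟨ρ, ρ0, hρ⟩ := Metric.isOpen_iff.1 hW z₁ hz₁
  obtain ⟨z, hzO, hzd, H⟩ := touchL _ (hW.inter isOpen_interior) z₁ hz (fun h => hne h.2) ρ ρ0
  have hzW : z ∈ W := hρ (by rwa [mem_ball, dist_eq_norm])
  have h1 : ∀ᶠ y in 𝓝 z, y ∈ W := hW.mem_nhds hzW
  have h2 : ∀ᶠ y in 𝓝 z, ∀ i ∈ Finset.range (p ^ s), ‖γ^[i] y - y‖ ≤ 1 / 30 * ‖y - z‖ :=
    (eventually_all_finset _).2 fun i _ => H _ (hd i z hzW)
      (fun y hy => Function.iterate_fixed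
        (interior_subset (s := {y | γ y = y}) hy.2) i) _ (by norm_num)
  obtain ⟨δ, δ0, hδ⟩ := Metric.eventually_nhds_iff.1 (h1.and h2)
  have h3 : ∀ y, dist y z < δ → ∀ i, ‖γ^[i] y - y‖ ≤ 1 / 30 * ‖y - z‖ := by
    intro y hy i
    have per : Function.IsPeriodicPt γ (p ^ s) y := hper y (hδ hy).1
    rw [← per.iterate_mod_apply]
    exact (hδ hy).2 _ (Finset.mem_range.2 (Nat.mod_lt _ (pow_pos (Fact.out : p.Prime).pos s)))
  refine hzO ⟨hzW, mem_interior_iff_mem_nhds.2 (Metric.eventually_nhds_iff.2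
    ⟨δ / 2, half_pos δ0, fun y0 hy0 => ?_⟩)⟩
  by_cases e : y0 = z
  · have := h3 z (by simpa using δ0) 1
    rw [sub_self, norm_zero, mul_zero, norm_le_zero_iff, sub_eq_zero] at this
    rw [e]
    exact this
  · have r0 : 0 < dist y0 z := dist_pos.2 e
    have b : ∀ y ∈ closedBall y0 (dist y0 z / 2), dist y z ≤ 3 * (dist y0 z / 2) := fun y hy => by
      have := dist_triangle y y0 z
      rw [mem_closedBall] at hy
      linarith
    have bW : closedBall y0 (dist y0 z / 2) ⊆ W := fun y hy => (hδ (by linarith [b y hy])).1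
    refine newmanL p s y0 (dist y0 z / 2) (half_pos r0) (fun i y hy => hd i y (bW hy))
      (hinj.mono bW) (fun y hy => hper y (bW hy)) fun i y hy => ?_
    have := h3 y (by linarith [b y hy]) i
    rw [← dist_eq_norm y z] at this
    linarith [b y hy]

end Vale.Agent.P228M
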