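import Vale.Agent.P228M.Step1M
import Vale.Agent.P228M.FinalL

namespace Vale.Agent.P228M

open Set Filter Topology Metric Vale.Agent.Lib.Degree Vale.Agent.P228D
open scoped Manifold

theorem finalM {p : ℕ} [Fact p.Prime] {n : ℕ} {M : Type} [TopologicalSpace M] [T2Space M]
    [ConnectedSpace M] [ChartedSpace (Fin n → ℝ) M] [IsManifold 𝓘(ℝ, Fin n → ℝ) 1 M]
    {A : ℤ_[p] → M → M} (ha : MAct p n A) : ∃ m : ℕ, ∀ x, A ((p : ℤ_[p]) ^ m) x = x := by
  obtain ⟨x₀⟩ : Nonempty M := inferInstance
  obtain ⟨m, hm⟩ := step1M ha x₀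
  refine ⟨m, ?_⟩
  set f : M → M := A ((p : ℤ_[p]) ^ m) with hf
  have fc : Continuous f := ha.2.2.1.comp (Continuous.prodMk continuous_const continuous_id)
  have hcl : closure (interior {y | f y = y}) ⊆ interior {y | f y = y} := by
    intro z hz
    have hfz : f z = z :=
      (closure_minimal interior_subset (isClosed_eq fc continuous_id) : _ ⊆ {y | f y = y}) hz
    obtain ⟨k, hk⟩ := step1M ha z
    set e := chartAt (Fin n → ℝ) z with he
    set U : Set M := interior {y | A ((p : ℤ_[p]) ^ k) y = y} ∩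
      ⋂ i ∈ Finset.range (p ^ k), f^[i] ⁻¹' e.source with hU
    have Uo : IsOpen U := isOpen_interior.inter
      (isOpen_biInter_finset fun i _ => e.open_source.preimage (fc.iterate i))
    have zU : z ∈ U := ⟨hk, mem_iInter₂.2 fun i _ => by
      show f^[i] z ∈ e.source
      rw [Function.iterate_fixed hfz]
      exact mem_chart_source _ z⟩
    have per : ∀ x ∈ U, f^[p ^ k] x = x := fun x hx => by
      rw [hf, ha.iter_pow]
      exact ha.mono (Nat.le_add_left k m)
        (interior_subset (s := {y | A ((p : ℤ_[p]) ^ k) y = y}) hx.1)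
    have src : ∀ x ∈ U, ∀ i, f^[i] x ∈ e.source := fun x hx i => by
      have pp : Function.IsPeriodicPt f (p ^ k) x := per x hx
      rw [← pp.iterate_mod_apply]
      exact mem_iInter₂.1 hx.2 _
        (Finset.mem_range.2 (Nat.mod_lt _ (pow_pos (Fact.out : p.Prime).pos k)))
    have src0 : ∀ x ∈ U, x ∈ e.source := fun x hx => src x hx 0
    set W : Set (Fin n → ℝ) := e.target ∩ e.symm ⁻¹' U with hW
    have Wo : IsOpen W := e.isOpen_inter_preimage_symm Uo
    set γ : (Fin n → ℝ) → (Fin n → ℝ) := fun u => e (f (e.symm u)) with hγ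
    have hit : ∀ y ∈ W, ∀ i, γ^[i] y = e (f^[i] (e.symm y)) := fun y hy i => by
      induction i with
      | zero => exact (e.right_inv hy.1).symm
      | succ i ih =>
        rw [Function.iterate_succ_apply', Function.iterate_succ_apply', ih]
        show e (f (e.symm (e _))) = _
        rw [e.left_inv (src _ hy.2 i)]
    have inW : ∀ x ∈ U, e x ∈ W := fun x hx =>
      ⟨e.map_source (src x hx 0), by
        show e.symm (e x) ∈ U
        rwa [e.left_inv (src0 x hx)]⟩
    have ec : ContinuousAt e z := e.continuousAt (src z zU 0)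
    have key := finalL p k (γ := γ) W Wo (fun i y hy => ?_) (fun y hy y' hy' h => ?_)
      (fun y hy => ?_) (e z) (inW z zU) ?_
    · refine mem_interior_iff_mem_nhds.2 ?_
      filter_upwards [Uo.mem_nhds zU, ec.preimage_mem_nhds (mem_interior_iff_mem_nhds.1 key)]
        with x hx hx'
      have h1 : e (f (e.symm (e x))) = e x := hx'
      rw [e.left_inv (src0 x hx)] at h1
      exact e.injOn (src x hx 1) (src x hx 0) h1
    · have h1 := chart_diff (ha.2.2.2 ((i : ℤ_[p]) * (p : ℤ_[p]) ^ m)) z y hy.1
        (by rw [← ha.iter]; exact src _ hy.2 i)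
      refine h1.congr_of_eventuallyEq ?_
      filter_upwards [Wo.mem_nhds hy] with u hu
      rw [hit u hu i, ← ha.iter]
    · have h1 := ha.inj _ (e.injOn (src _ hy.2 1) (src _ hy'.2 1) h)
      exact e.symm.injOn hy.1 hy'.1 h1
    · rw [hit y hy, per _ hy.2, e.right_inv hy.1]
    · have h1 : z ∈ closure (U ∩ interior {y | f y = y}) := Uo.inter_closure ⟨zU, hz⟩
      refine closure_mono ?_ (mem_closure_image ec h1)
      rintro _ ⟨x, hx, rfl⟩
      refine ⟨inW x hx.1, ?_⟩
      have h2 : IsOpen (e.target ∩ e.symm ⁻¹' interior {y | f y = y}) :=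
        e.isOpen_inter_preimage_symm isOpen_interior
      refine interior_maximal (fun y hy => ?_) h2 ⟨(inW x hx.1).1, ?_⟩
      · have h3 : f (e.symm y) = e.symm y := interior_subset (s := {y | f y = y}) hy.2
        show e (f (e.symm y)) = y
        rw [h3, e.right_inv hy.1]
      · show e.symm (e x) ∈ interior {y | f y = y}
        rw [e.left_inv (src0 x hx.1)]
        exact hx.2
  have hu : interior {y | f y = y} = univ :=
    IsClopen.eq_univ ⟨closure_subset_iff_isClosed.1 hcl, isOpen_interior⟩ ⟨x₀, hm⟩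
  intro x
  exact interior_subset (s := {y | f y = y}) (by rw [hu]; trivial)

end Vale.Agent.P228M
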