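import Vale.Agent.P228M.CntL

namespace Vale.Agent.P228M

open Set Filter Topology Metric Vale.Agent.Lib.Degree Vale.Agent.P228D
open scoped Manifold

theorem orientL {n : ℕ} {γ : (Fin n → ℝ) → (Fin n → ℝ)} (y₀ z : Fin n → ℝ) (r : ℝ) (hr : 0 < r)
    (hγ : ∀ y ∈ closedBall y₀ r, DifferentiableAt ℝ γ y) (hinj : InjOn γ (closedBall y₀ r))
    (hz : ‖z - y₀‖ ≤ 3 * r / 10) (hd : ∀ y ∈ closedBall y₀ r, ‖γ y - y‖ ≤ r / 10)
    (hdet : (fderiv ℝ γ z).det ≠ 0) : 0 < (fderiv ℝ γ z).det := by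
  obtain ⟨c, hc, hcm, hcid⟩ := exists_clamp y₀ r hr.le
  have hγc : ContinuousOn γ (closedBall y₀ r) := fun y hy =>
    (hγ y hy).continuousAt.continuousWithinAt
  have hG : Continuous fun y => γ (c y) := hγc.comp_continuous hc hcm
  have hzb : z ∈ ball y₀ r := mem_ball_iff_norm.2 (by linarith)
  have hzc : z ∈ closedBall y₀ r := ball_subset_closedBall hzb
  have hw : ‖γ z - y₀‖ < r / 2 := by
    have h1 := hd z hzc
    have h2 := norm_sub_le_norm_sub_add_norm_sub (γ z) z y₀
    linarith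
  have h1 := deg_near hG y₀ (γ z) r hr hw (fun y hy => by rw [hcid y hy]; exact hd y hy)
  have h0 : ∀ x ∈ closedBall y₀ r, γ (c x) - γ z = 0 → x = z := fun x hx h => by
    rw [hcid x hx] at h
    exact hinj hx hzc (sub_eq_zero.1 h)
  have hev : (fun y => γ (c y) - γ z) =ᶠ[𝓝 z] fun y => γ y - γ z := by
    filter_upwards [isOpen_ball.mem_nhds hzb] with y hy
    rw [hcid y (ball_subset_closedBall hy)]
  have hfd : fderiv ℝ (fun y => γ (c y) - γ z) z = fderiv ℝ γ z := by
    rw [hev.fderiv_eq, fderiv_sub_const]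
  obtain ⟨Z, hZ, h2⟩ := deg_signsL (g := fun y => γ (c y) - γ z) (hG.sub continuous_const)
    isOpen_ball (isBounded_ball (x := y₀) (r := r)) (fun x hx h => by
      have hxc : x ∈ closedBall y₀ r :=
        sphere_subset_closedBall (frontier_ball_subset_sphere hx)
      rw [isOpen_ball.frontier_eq, h0 x hxc h] at hx
      exact hx.2 hzb) (fun x hx h => by
      rw [h0 x (ball_subset_closedBall hx) h, hfd]
      exact ⟨((hγ z hzc).sub_const _).congr_of_eventuallyEq hev, hdet⟩)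
  have e : Z = {z} := by
    ext x
    rw [hZ, Finset.mem_singleton]
    exact ⟨fun h => h0 x (ball_subset_closedBall h.1) h.2,
      fun h => by rw [h]; exact ⟨hzb, by rw [hcid z hzc]; exact sub_self _⟩⟩
  rw [h1, e, Finset.sum_singleton, hfd] at h2
  by_contra hn
  rw [if_neg hn] at h2
  norm_num at h2

end Vale.Agent.P228M
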