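import Vale.Agent.P228M.NewmanL
import Vale.Agent.P228M.BaireBL

namespace Vale.Agent.P228M

open Set Filter Topology Metric Vale.Agent.Lib.Degree Vale.Agent.P228D
open scoped Manifold

theorem step1L {p : ℕ} [Fact p.Prime] {n : ℕ} {a : ℤ_[p] → (Fin n → ℝ) → (Fin n → ℝ)}
    {η₀ : ℝ} {W : Set (Fin n → ℝ)} (ha : LocAct p a η₀ W) (F G : Set (Fin n → ℝ))
    (hF : IsCompact F) (hFW : F ⊆ W) (hG : IsOpen G) (hGW : G ⊆ W) (hne : (F ∩ G).Nonempty)
    (hO : ∀ y ∈ G, y ∉ F → ∃ k : ℕ, ∀ᶠ u in 𝓝 y, ∀ j : ℕ, k ≤ j → a ((p : ℤ_[p]) ^ j) u = u) :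
    ∃ z ∈ F, ∃ m : ℕ, ‖(p : ℤ_[p]) ^ m‖ ≤ η₀ ∧ ∀ᶠ u in 𝓝 z, a ((p : ℤ_[p]) ^ m) u = u := by
  obtain ⟨z, ρ', η, hz, hρ', hη, hη0, hB⟩ := baireBL ha F G hF hFW hG hne
  obtain ⟨-, hW, h0, hadd, -, hdiff, -⟩ := ha
  obtain ⟨ε, hε, hεG⟩ := Metric.isOpen_iff.1 hG z hz.2
  obtain ⟨ρ, hρ, hρ1, hρ2⟩ : ∃ ρ, 0 < ρ ∧ ρ ≤ ρ' ∧ ρ ≤ ε :=
    ⟨min ρ' ε, lt_min hρ' hε, min_le_left _ _, min_le_right _ _⟩
  obtain ⟨O, hOd⟩ : ∃ O : ℕ → Set (Fin n → ℝ),
      ∀ k, O k = interior {u | ∀ j : ℕ, k ≤ j → a ((p : ℤ_[p]) ^ j) u = u} := ⟨_, fun _ => rfl⟩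
  have hOo : ∀ m, IsOpen (O m) := fun m => hOd m ▸ isOpen_interior
  have hOm : Monotone O := fun m k hmk => by
    rw [hOd, hOd]
    exact interior_mono fun y hy j hj => hy j (hmk.trans hj)
  have hne' : F.Nonempty := ⟨z, hz.1⟩
  have hp1 : ‖(p : ℤ_[p])‖ < 1 := by
    rw [PadicInt.norm_p]
    exact inv_lt_one_of_one_lt₀ (by exact_mod_cast (Fact.out : p.Prime).one_lt)
  obtain ⟨m0, hm0⟩ := exists_pow_lt_of_lt_one hη hp1
  have hsmall : ∀ c : ℤ_[p], ‖c * (p : ℤ_[p]) ^ m0‖ < η := fun c => by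
    rw [norm_mul, norm_pow]
    exact lt_of_le_of_lt (mul_le_of_le_one_left (by positivity) (PadicInt.norm_le_one c)) hm0
  have hs1 : ‖(p : ℤ_[p]) ^ m0‖ ≤ η₀ := by simpa using (hsmall 1).le.trans hη0
  have iter : ∀ i : ℕ, ∀ y ∈ W, (a ((p : ℤ_[p]) ^ m0))^[i] y = a (i * (p : ℤ_[p]) ^ m0) y := by
    intro i y hy
    induction i with
    | zero => simp [h0 y hy]
    | succ i ih =>
      rw [Function.iterate_succ_apply', ih, ← hadd _ _ hs1 ((hsmall i).le.trans hη0) y hy]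
      congr 1
      push_cast
      ring
  have key : ∀ y0 ∈ ball z (ρ / 4), a ((p : ℤ_[p]) ^ m0) y0 = y0 := by
    intro y0 hy0
    rw [mem_ball] at hy0
    by_cases hyF : y0 ∈ F
    · have h1 : ‖y0 - z‖ < ρ' := by rw [← dist_eq_norm]; linarith
      have h2 := hB _ (hsmall 1) y0 hyF h1 y0 h1
      rw [one_mul, sub_self, norm_zero, mul_zero] at h2
      exact sub_eq_zero.1 (norm_le_zero_iff.1 h2)
    · have hd : 0 < infDist y0 F := (hF.isClosed.notMem_iff_infDist_pos hne').1 hyF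
      obtain ⟨x', hx', hxd⟩ := hF.isClosed.exists_infDist_eq_dist hne' y0
      have hdz : infDist y0 F ≤ dist y0 z := infDist_le_dist_of_mem hz.1
      obtain ⟨r, hr⟩ : ∃ r, r = infDist y0 F / 2 := ⟨_, rfl⟩
      have hr0 : 0 < r := by rw [hr]; linarith
      have hsG : closedBall y0 r ⊆ G := fun y hy => hεG (by
        rw [mem_closedBall] at hy
        rw [mem_ball]
        linarith [dist_triangle y y0 z])
      have hsub : closedBall y0 r ⊆ ⋃ m, O m := by
        intro y hy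
        obtain ⟨k, hk⟩ := hO y (hsG hy) fun hyn => by
          have h1 : infDist y0 F ≤ dist y0 y := infDist_le_dist_of_mem hyn
          rw [mem_closedBall, dist_comm] at hy
          linarith
        exact mem_iUnion.2 ⟨k, hOd k ▸ mem_interior_iff_mem_nhds.2 hk⟩
      obtain ⟨k, hk⟩ := (isCompact_closedBall y0 r).elim_directed_cover O hOo hsub
        hOm.directed_le
      refine newmanL p k y0 r hr0 (fun i y hy => ?_) (fun y hy y' hy' h => ?_) (fun y hy => ?_)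
        (fun i y hy => ?_)
      · refine (hdiff _ ((hsmall i).le.trans hη0) y (hGW (hsG hy))).congr_of_eventuallyEq ?_
        filter_upwards [hW.mem_nhds (hGW (hsG hy))] with u hu using iter i u hu
      · have := congrArg (a (-(p : ℤ_[p]) ^ m0)) h
        rwa [← hadd _ _ (by rwa [norm_neg]) hs1 y (hGW (hsG hy)),
          ← hadd _ _ (by rwa [norm_neg]) hs1 y' (hGW (hsG hy')), neg_add_cancel,
          h0 y (hGW (hsG hy)), h0 y' (hGW (hsG hy'))] at this
      · have h1 : y ∈ O k := hk hy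
        rw [hOd] at h1
        rw [iter _ y (hGW (hsG hy)), Nat.cast_pow, ← pow_add]
        exact interior_subset h1 (k + m0) (Nat.le_add_right k m0)
      · rw [iter _ y (hGW (hsG hy))]
        rw [mem_closedBall] at hy
        have t1 := dist_triangle x' y0 z
        have t2 := dist_triangle y y0 z
        have t3 := dist_triangle y y0 x'
        rw [dist_comm x' y0] at t1
        have h1 := hB _ (hsmall i) x' hx' (by rw [← dist_eq_norm]; linarith) y
          (by rw [← dist_eq_norm]; linarith)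
        rw [← dist_eq_norm y x'] at h1
        linarith
  exact ⟨z, hz.1, m0, hs1, Filter.mem_of_superset (ball_mem_nhds z (by linarith)) key⟩

end Vale.Agent.P228M
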