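import Vale.Agent.P228M.Step1L
import Vale.Agent.P228M.Chart

namespace Vale.Agent.P228M

open Set Filter Topology Metric Vale.Agent.Lib.Degree Vale.Agent.P228D
open scoped Manifold

theorem step1M {p : ℕ} [Fact p.Prime] {n : ℕ} {M : Type} [TopologicalSpace M]
    [ChartedSpace (Fin n → ℝ) M] [IsManifold 𝓘(ℝ, Fin n → ℝ) 1 M] {A : ℤ_[p] → M → M}
    (ha : MAct p n A) (x : M) : ∃ m : ℕ, x ∈ interior {y | A ((p : ℤ_[p]) ^ m) y = y} := by
  by_contra hc
  obtain ⟨η₀, W, hL, hxW, hWt, hsrc⟩ := chart_loc ha x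
  set e := chartAt (Fin n → ℝ) x with he
  have hWo : IsOpen W := hL.2.1
  obtain ⟨R, hR, hRW⟩ := nhds_basis_closedBall.mem_iff.1 (hWo.mem_nhds hxW)
  obtain ⟨U, hU⟩ : ∃ U : Set M, U = ⋃ m : ℕ, interior {y | A ((p : ℤ_[p]) ^ m) y = y} := ⟨_, rfl⟩
  have hUo : IsOpen U := hU ▸ isOpen_iUnion fun _ => isOpen_interior
  have hcl : IsClosed (closedBall (e x) R ∩ e.symm ⁻¹' Uᶜ) :=
    (e.continuousOn_symm.mono (hRW.trans hWt)).preimage_isClosed_of_isClosed isClosed_closedBall
      hUo.isClosed_compl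
  have hxs : x ∈ e.source := mem_chart_source _ x
  obtain ⟨z, hz, m, hm, hev⟩ := step1L hL (closedBall (e x) R ∩ e.symm ⁻¹' Uᶜ) (ball (e x) R)
    ((isCompact_closedBall _ _).of_isClosed_subset hcl inter_subset_left)
    (inter_subset_left.trans hRW) isOpen_ball (ball_subset_closedBall.trans hRW)
    ⟨e x, ⟨mem_closedBall_self hR.le, by
      rw [mem_preimage, e.left_inv hxs, hU]
      exact fun h => hc (mem_iUnion.1 h)⟩, mem_ball_self hR⟩
    (fun y hy hyF => by
      have hyW : y ∈ W := hRW (ball_subset_closedBall hy)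
      have h1 : e.symm y ∈ U := by
        by_contra h
        exact hyF ⟨ball_subset_closedBall hy, h⟩
      rw [hU] at h1
      obtain ⟨k, hk⟩ := mem_iUnion.1 h1
      refine ⟨k, ?_⟩
      have h2 := (e.continuousAt_symm (hWt hyW)).eventually (mem_interior_iff_mem_nhds.1 hk)
      filter_upwards [h2, hWo.mem_nhds hyW] with u hu huW j hj
      rw [ha.mono hj hu, e.right_inv (hWt huW)])
  have hzW : z ∈ W := hRW hz.1
  have hzs : e.symm z ∈ e.source := e.map_target (hWt hzW)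
  refine hz.2 ?_
  rw [hU]
  refine mem_iUnion.2 ⟨m, mem_interior_iff_mem_nhds.2 ?_⟩
  have h3 : Tendsto e (𝓝 (e.symm z)) (𝓝 z) := by
    have := e.continuousAt hzs
    rwa [ContinuousAt, e.right_inv (hWt hzW)] at this
  filter_upwards [h3.eventually hev, h3.eventually (hWo.mem_nhds hzW),
    e.open_source.mem_nhds hzs] with u h1 h2 h4
  have h5 := hsrc _ hm _ h2
  rw [e.left_inv h4] at h1 h5
  exact e.injOn h5 h4 h1

end Vale.Agent.P228M
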